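import Mathlib
import Vale.Agent.P243.Defs
import Vale.Agent.P243.Cover

namespace Vale.Agent.Results.P243.Main

open Vale.Agent.P243
open scoped ENNReal

/-- A regular tetrahedron has a finite cylinder covering of total base area below half of its
least projection area, and of directionwise relative area below one half. -/
theorem result : ∃ (V : Fin 4 → E3) (K : Set E3),
    (∀ i j, i ≠ j → dist (V i) (V j) = 2) ∧ K = convexHull ℝ (Set.range V) ∧
    IsCompact K ∧ Convex ℝ K ∧ (interior K).Nonempty ∧ Amin K = ENNReal.ofReal (Real.sqrt 2) ∧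
    (∀ u : E3, ‖u‖ = 1 → area (proj u '' K) < ∞) ∧
    ∃ (m : ℕ) (u : Fin m → E3) (B : Fin m → Set E3),
      (∀ i, ‖u i‖ = 1) ∧ (∀ i, ∀ b ∈ B i, inner ℝ (u i) b = 0) ∧ (∀ i, MeasurableSet (B i)) ∧
      (∀ i, area (B i) < ∞) ∧ K ⊆ ⋃ i, cylinder (B i) (u i) ∧
      ∑ i, area (B i) < Amin K / 2 ∧
      ∑ i, area (B i) / area (proj (u i) '' K) < 1 / 2 := by
  obtain ⟨m, u, B, h1, h2, h3, h4, h5⟩ := main
  refine ⟨VV, KK, dist_VV, rfl, (Set.finite_range VV).isCompact_convexHull ℝ,
    convex_convexHull ℝ _, interior_KK, Amin_KK,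
    fun _ hu => area_proj_lt_top ((Set.finite_range VV).isCompact_convexHull ℝ) hu, m, u, B, h1, h2, h3, ?_, h4, ?_, ?_⟩
  · intro i
    exact ((Finset.single_le_sum (f := fun i => area (B i)) (fun _ _ => bot_le)
      (Finset.mem_univ i)).trans_lt h5).trans_le le_top
  · rwa [Amin_KK]
  · have hp : ENNReal.ofReal hh ≠ 0 := by simpa using hh_pos
    calc ∑ i, area (B i) / area (proj (u i) '' KK) ≤ ∑ i, area (B i) / ENNReal.ofReal hh := by
          gcongr with i
          exact area_proj_ge (h1 i)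
      _ = (∑ i, area (B i)) / ENNReal.ofReal hh := by
          simp only [div_eq_mul_inv, Finset.sum_mul]
      _ < 1 / 2 := by
          rw [ENNReal.div_lt_iff (Or.inl hp) (Or.inl ENNReal.ofReal_ne_top)]
          refine h5.trans_le (le_of_eq ?_)
          simp [div_eq_mul_inv, mul_comm]

end Vale.Agent.Results.P243.Main
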